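import Vale.Agent.P254.S.H692.Trig

/-!
# P254, block SP: `{N v + κ}` is dense in `L²` of the Gaussian
-/

open MeasureTheory Filter
open scoped ENNReal Topology

noncomputable section

namespace Vale.Agent.P254.S692

open Vale.Agent.P227.M Vale.Agent.P254.S Vale.Agent.P254.S130

variable {n : ℕ}

instance instProbGQ : IsProbabilityMeasure (gQ n) := gQ_prob

lemma GM.aesm {f : E n → ℝ} (hf : GM f) : AEStronglyMeasurable f (gQ n) := hf.1.mono_ac gQ_ac

lemma GM.memLp {f : E n → ℝ} (hf : GM f) : MemLp f 2 (gQ n) :=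
  (memLp_two_iff_integrable_sq hf.aesm).2 hf.sq.integrable

lemma gm_norm : GM (fun z : E n => ‖z‖) := Gr.gm Gr.norm

lemma ip_smul (s : ℝ) (c z : E n) : (inner ℝ (s • c) z : ℝ) = s * inner ℝ c z :=
  real_inner_smul_left _ _ _

lemma inner_eq_sum (c z : E n) : (inner ℝ c z : ℝ) = ∑ a, z a * c a := by
  rw [PiLp.inner_apply]
  refine Finset.sum_congr rfl fun a _ => ?_
  simp

/-- `N tr = ⟨c,z⟩ (-α sin + β cos) + |c|² tr` -/
lemma NN_tr (c : E n) (α β : ℝ) (z : E n) :
    NN (tr c α β) z = inner ℝ c z * (-α * Real.sin (inner ℝ c z) + β * Real.cos (inner ℝ c z)) +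
      ‖c‖ ^ 2 * tr c α β z := by
  unfold NN
  have h : ∀ a, z a * pd a (tr c α β) z - pd a (pd a (tr c α β)) z =
      (z a * c a) * (-α * Real.sin (inner ℝ c z) + β * Real.cos (inner ℝ c z)) +
        c a ^ 2 * tr c α β z := by
    intro a
    rw [pd_tr, pd_tr]
    simp only [tr]
    ring
  rw [Finset.sum_congr rfl fun a _ => h a, Finset.sum_add_distrib, ← Finset.sum_mul,
    ← Finset.sum_mul, ← inner_eq_sum, norm_sq_eq_sum]

/-- orthogonality to `N` of the trigonometric functions and to constants kills all the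
trigonometric moments -/
lemma moment_zero {f : E n → ℝ} (hf : MemLp f 2 (gQ n)) (h1 : ∫ z, f z ∂(gQ n) = 0)
    (h2 : ∀ (c : E n) (α β : ℝ), ∫ z, f z * NN (tr c α β) z ∂(gQ n) = 0) (c : E n) (α β : ℝ) :
    ∫ z, f z * tr c α β z ∂(gQ n) = 0 := by
  have hfi : Integrable f (gQ n) := hf.integrable (by norm_num)
  set D : ℝ → E n → ℝ := fun s z =>
    inner ℝ c z * (-α * Real.sin (s * inner ℝ c z) + β * Real.cos (s * inner ℝ c z)) with hD
  have hF : ∀ (s : ℝ) (z : E n), tr (s • c) α β z =
      α * Real.cos (s * inner ℝ c z) + β * Real.sin (s * inner ℝ c z) := by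
    intro s z
    simp only [tr, ip_smul]
  have hmaj : Integrable (fun z => (‖c‖ * (|α| + |β|)) * (|f z| * ‖z‖)) (gQ n) := by
    have := hf.norm.integrable_mul (gm_norm (n := n)).memLp
    exact this.const_mul _
  have hcont : Continuous fun z : E n => (inner ℝ c z : ℝ) := by fun_prop
  have hd : ∀ s : ℝ, HasDerivAt (fun s => ∫ z, f z * tr (s • c) α β z ∂(gQ n))
      (∫ z, f z * D s z ∂(gQ n)) s := by
    intro s
    refine (hasDerivAt_integral_of_dominated_loc_of_deriv_le (s := Set.univ) univ_mem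
      (Eventually.of_forall fun s => ?_) ?_ (F' := fun s z => f z * D s z) ?_
      (ae_of_all _ fun z s _ => ?_) hmaj (ae_of_all _ fun z s _ => ?_)).2
    · exact hf.1.mul (TP_of (tr_mem (s • c) α β)).gm.aesm
    · have := hf.integrable_mul (TP_of (tr_mem (s • c) α β)).gm.memLp
      exact this
    · refine hf.1.mul ?_
      have : Continuous fun z : E n => D s z := by
        simp only [hD]
        fun_prop
      exact this.aestronglyMeasurable
    · show ‖f z * D s z‖ ≤ _
      rw [norm_mul, Real.norm_eq_abs, Real.norm_eq_abs]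
      have e1 : |D s z| ≤ (‖c‖ * ‖z‖) * (|α| + |β|) := by
        simp only [hD]
        rw [abs_mul]
        refine mul_le_mul (abs_real_inner_le_norm c z) ?_ (abs_nonneg _) (by positivity)
        refine (abs_add_le _ _).trans (add_le_add ?_ ?_)
        · rw [abs_mul, abs_neg]
          exact mul_le_of_le_one_right (abs_nonneg _) (Real.abs_sin_le_one _)
        · rw [abs_mul]
          exact mul_le_of_le_one_right (abs_nonneg _) (Real.abs_cos_le_one _)
      calc |f z| * |D s z| ≤ |f z| * ((‖c‖ * ‖z‖) * (|α| + |β|)) :=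
            mul_le_mul_of_nonneg_left e1 (abs_nonneg _)
        _ = _ := by ring
    · show HasDerivAt (fun s => f z * tr (s • c) α β z) (f z * D s z) s
      simp only [hF]
      have e2 : HasDerivAt (fun s : ℝ => s * inner ℝ c z) (inner ℝ c z : ℝ) s := by
        simpa using (hasDerivAt_id s).mul_const (inner ℝ c z : ℝ)
      have e3 := ((e2.cos.const_mul α).add (e2.sin.const_mul β)).const_mul (f z)
      refine HasDerivAt.congr_deriv (f := fun s : ℝ => f z * (α * Real.cos (s * inner ℝ c z) +
        β * Real.sin (s * inner ℝ c z))) e3 ?_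
      simp only [hD]
      ring
  set P : ℝ → ℝ := fun s => Real.exp (s ^ 2 * ‖c‖ ^ 2 / 2) * ∫ z, f z * tr (s • c) α β z ∂(gQ n)
    with hP
  have hPd : ∀ s, HasDerivAt P (Real.exp (s ^ 2 * ‖c‖ ^ 2 / 2) *
      (s * ‖c‖ ^ 2 * ∫ z, f z * tr (s • c) α β z ∂(gQ n) + ∫ z, f z * D s z ∂(gQ n))) s := by
    intro s
    have e1 : HasDerivAt (fun s : ℝ => s ^ 2 * ‖c‖ ^ 2 / 2) (s * ‖c‖ ^ 2) s := by
      have := ((hasDerivAt_pow 2 s).mul_const (‖c‖ ^ 2)).div_const 2
      refine this.congr_deriv ?_
      push_cast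
      ring
    have e2 := e1.exp.mul (hd s)
    refine HasDerivAt.congr_deriv (f := P) e2 ?_
    ring
  have hzero : ∀ s, s ≠ 0 →
      s * ‖c‖ ^ 2 * ∫ z, f z * tr (s • c) α β z ∂(gQ n) + ∫ z, f z * D s z ∂(gQ n) = 0 := by
    intro s hs
    have e1 := h2 (s • c) α β
    have e2 : ∀ z, f z * NN (tr (s • c) α β) z =
        s * (f z * D s z) + (s ^ 2 * ‖c‖ ^ 2) * (f z * tr (s • c) α β z) := by
      intro z
      rw [NN_tr, norm_smul, ip_smul]
      simp only [hD, Real.norm_eq_abs, mul_pow, sq_abs]
      ring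
    have i1 : Integrable (fun z => f z * D s z) (gQ n) := by
      have hc2 : Continuous fun z : E n => D s z := by
        simp only [hD]
        fun_prop
      refine hmaj.mono' (hf.1.mul hc2.aestronglyMeasurable) (ae_of_all _ fun z => ?_)
      rw [norm_mul, Real.norm_eq_abs, Real.norm_eq_abs]
      have e1 : |D s z| ≤ (‖c‖ * ‖z‖) * (|α| + |β|) := by
        simp only [hD]
        rw [abs_mul]
        refine mul_le_mul (abs_real_inner_le_norm c z) ?_ (abs_nonneg _) (by positivity)
        refine (abs_add_le _ _).trans (add_le_add ?_ ?_)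
        · rw [abs_mul, abs_neg]
          exact mul_le_of_le_one_right (abs_nonneg _) (Real.abs_sin_le_one _)
        · rw [abs_mul]
          exact mul_le_of_le_one_right (abs_nonneg _) (Real.abs_cos_le_one _)
      calc |f z| * |D s z| ≤ |f z| * ((‖c‖ * ‖z‖) * (|α| + |β|)) :=
            mul_le_mul_of_nonneg_left e1 (abs_nonneg _)
        _ = _ := by ring
    have i2 : Integrable (fun z => f z * tr (s • c) α β z) (gQ n) :=
      hf.integrable_mul (TP_of (tr_mem (s • c) α β)).gm.memLp
    simp only [e2] at e1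
    rw [integral_add (i1.const_mul _) (i2.const_mul _), integral_const_mul,
      integral_const_mul] at e1
    have e3 : s * (s * ‖c‖ ^ 2 * ∫ z, f z * tr (s • c) α β z ∂(gQ n) +
        ∫ z, f z * D s z ∂(gQ n)) = 0 := by
      rw [← e1]
      ring
    exact (mul_eq_zero.1 e3).resolve_left hs
  obtain ⟨ξ, hξ, hξ2⟩ := exists_deriv_eq_slope P (a := 0) (b := 1) one_pos
    (fun s _ => (hPd s).continuousAt.continuousWithinAt)
    (fun s _ => (hPd s).differentiableAt.differentiableWithinAt)
  rw [(hPd ξ).deriv, hzero ξ hξ.1.ne', mul_zero] at hξ2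
  have hP01 : P 1 = P 0 := by
    have : P 1 - P 0 = 0 := by
      have h := hξ2.symm
      simpa using h
    linarith
  have hP0 : P 0 = 0 := by
    simp only [hP, hF]
    have : ∀ z, f z * (α * Real.cos (0 * inner ℝ c z) + β * Real.sin (0 * inner ℝ c z)) =
        α * f z := by
      intro z
      simp
      ring
    simp only [this]
    rw [integral_const_mul, h1]
    simp
  rw [hP0] at hP01
  simp only [hP, one_smul] at hP01
  exact (mul_eq_zero.1 hP01).resolve_left (Real.exp_pos _).ne'

/-- uniqueness of the Fourier transform, in the form needed -/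
lemma ae_zero_of_moments {f : E n → ℝ} (hf : Integrable f (gQ n))
    (h : ∀ (c : E n) (α β : ℝ), ∫ z, f z * tr c α β z ∂(gQ n) = 0) : f =ᵐ[gQ n] 0 := by
  set μ1 : Measure (E n) := (gQ n).withDensity fun z => ENNReal.ofReal (f z) with hμ1
  set μ2 : Measure (E n) := (gQ n).withDensity fun z => ENNReal.ofReal (-f z) with hμ2
  have fin1 : ∫⁻ z, ENNReal.ofReal (f z) ∂(gQ n) ≠ ∞ := by
    refine ne_top_of_le_ne_top hf.2.ne (lintegral_mono fun z => ?_)
    rw [← ofReal_norm]
    exact ENNReal.ofReal_le_ofReal (le_abs_self _)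
  have fin2 : ∫⁻ z, ENNReal.ofReal (-f z) ∂(gQ n) ≠ ∞ := by
    refine ne_top_of_le_ne_top hf.2.ne (lintegral_mono fun z => ?_)
    rw [← ofReal_norm]
    exact ENNReal.ofReal_le_ofReal (neg_le_abs _)
  have i1 : IsFiniteMeasure μ1 := isFiniteMeasure_withDensity fin1
  have i2 : IsFiniteMeasure μ2 := isFiniteMeasure_withDensity fin2
  have m1 : AEMeasurable (fun z => ENNReal.ofReal (f z)) (gQ n) :=
    hf.1.aemeasurable.ennreal_ofReal
  have m2 : AEMeasurable (fun z => ENNReal.ofReal (-f z)) (gQ n) :=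
    hf.1.aemeasurable.neg.ennreal_ofReal
  have key : μ1 = μ2 := by
    refine Measure.ext_of_charFun ?_
    funext t
    rw [charFun_apply, charFun_apply, hμ1, hμ2]
    rw [integral_withDensity_eq_integral_toReal_smul₀ m1 (ae_of_all _ fun z => ENNReal.ofReal_lt_top),
      integral_withDensity_eq_integral_toReal_smul₀ m2 (ae_of_all _ fun z => ENNReal.ofReal_lt_top)]
    have hb : ∀ z : E n, ‖Complex.exp ((inner ℝ z t : ℝ) * Complex.I)‖ ≤ 1 := by
      intro z
      rw [Complex.norm_exp_ofReal_mul_I]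
    have hc : AEStronglyMeasurable (fun z : E n => Complex.exp ((inner ℝ z t : ℝ) * Complex.I))
        (gQ n) := by
      have : Continuous fun z : E n => Complex.exp ((inner ℝ z t : ℝ) * Complex.I) := by fun_prop
      exact this.aestronglyMeasurable
    have hpos : Integrable (fun z => (ENNReal.ofReal (f z)).toReal) (gQ n) := by
      refine hf.norm.mono' m1.ennreal_toReal.aestronglyMeasurable (ae_of_all _ fun z => ?_)
      rw [Real.norm_of_nonneg ENNReal.toReal_nonneg, Real.norm_eq_abs, ENNReal.toReal_ofReal']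
      exact max_le (le_abs_self _) (abs_nonneg _)
    have hneg : Integrable (fun z => (ENNReal.ofReal (-f z)).toReal) (gQ n) := by
      refine hf.norm.mono' m2.ennreal_toReal.aestronglyMeasurable (ae_of_all _ fun z => ?_)
      rw [Real.norm_of_nonneg ENNReal.toReal_nonneg, Real.norm_eq_abs, ENNReal.toReal_ofReal']
      exact max_le (neg_le_abs _) (abs_nonneg _)
    have j1 : Integrable (fun z => (ENNReal.ofReal (f z)).toReal •
        Complex.exp ((inner ℝ z t : ℝ) * Complex.I)) (gQ n) := by
      refine hpos.norm.mono' (hpos.1.smul hc) (ae_of_all _ fun z => ?_)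
      rw [norm_smul]
      exact mul_le_of_le_one_right (norm_nonneg _) (hb z)
    have j2 : Integrable (fun z => (ENNReal.ofReal (-f z)).toReal •
        Complex.exp ((inner ℝ z t : ℝ) * Complex.I)) (gQ n) := by
      refine hneg.norm.mono' (hneg.1.smul hc) (ae_of_all _ fun z => ?_)
      rw [norm_smul]
      exact mul_le_of_le_one_right (norm_nonneg _) (hb z)
    rw [← sub_eq_zero, ← integral_sub j1 j2]
    have e : ∀ z, (ENNReal.ofReal (f z)).toReal • Complex.exp ((inner ℝ z t : ℝ) * Complex.I) -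
        (ENNReal.ofReal (-f z)).toReal • Complex.exp ((inner ℝ z t : ℝ) * Complex.I) =
        ((f z * tr t 1 0 z : ℝ) : ℂ) + ((f z * tr t 0 1 z : ℝ) : ℂ) * Complex.I := by
      intro z
      rw [← sub_smul, ENNReal.toReal_ofReal', ENNReal.toReal_ofReal']
      have : max (f z) 0 - max (-f z) 0 = f z := by
        rcases le_total 0 (f z) with h0 | h0
        · rw [max_eq_left h0, max_eq_right (by linarith)]
          ring
        · rw [max_eq_right h0, max_eq_left (by linarith)]
          ring
      rw [this, Complex.exp_mul_I, Complex.real_smul, real_inner_comm]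
      simp only [tr]
      push_cast
      ring
    simp only [e]
    have k1 : Integrable (fun z => ((f z * tr t 1 0 z : ℝ) : ℂ)) (gQ n) := by
      refine Integrable.ofReal ?_
      refine (hf.norm.mul_const (|(1 : ℝ)| + |(0 : ℝ)|)).mono'
        (hf.1.mul (TP_of (tr_mem t 1 0)).gm.aesm) (ae_of_all _ fun z => ?_)
      show ‖f z * tr t 1 0 z‖ ≤ _
      rw [norm_mul]
      exact mul_le_mul_of_nonneg_left (tr_bdd t 1 0 z) (norm_nonneg _)
    have k2 : Integrable (fun z => ((f z * tr t 0 1 z : ℝ) : ℂ)) (gQ n) := by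
      refine Integrable.ofReal ?_
      refine (hf.norm.mul_const (|(0 : ℝ)| + |(1 : ℝ)|)).mono'
        (hf.1.mul (TP_of (tr_mem t 0 1)).gm.aesm) (ae_of_all _ fun z => ?_)
      show ‖f z * tr t 0 1 z‖ ≤ _
      rw [norm_mul]
      exact mul_le_mul_of_nonneg_left (tr_bdd t 0 1 z) (norm_nonneg _)
    rw [integral_add k1 (k2.mul_const _), integral_mul_const, integral_complex_ofReal, integral_complex_ofReal,
      h, h]
    simp
  have h3 := (withDensity_eq_iff m1 m2 fin1).1 key
  filter_upwards [h3] with z hz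
  show f z = 0
  rcases le_total 0 (f z) with h0 | h0
  · have h4 : ENNReal.ofReal (-f z) = 0 := ENNReal.ofReal_of_nonpos (by linarith)
    rw [h4, ENNReal.ofReal_eq_zero] at hz
    linarith
  · have h4 : ENNReal.ofReal (f z) = 0 := ENNReal.ofReal_of_nonpos h0
    rw [h4] at hz
    have h5 := ENNReal.ofReal_eq_zero.1 hz.symm
    linarith

end Vale.Agent.P254.S692
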