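import Vale.Agent.P254.S.H692.Dense

/-!
# P254, block SP: the dual variance bound

`Var u ≤ ∑ᵢ E (Xᵢ²) + ∑ₐᵢ E (Yₐᵢ²)` whenever `∇u = X + ∑ₐ (zₐ Yₐ - ∂ₐYₐ)`.
-/

open MeasureTheory Filter
open scoped ENNReal Topology

noncomputable section

namespace Vale.Agent.P254.S692

open Vale.Agent.P227.M Vale.Agent.P254.S Vale.Agent.P254.S130

variable {n : ℕ}

lemma NN_add {v w : E n → ℝ} (hv : TP v) (hw : TP w) (z : E n) :
    NN (v + w) z = NN v z + NN w z := by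
  unfold NN
  rw [← Finset.sum_add_distrib]
  refine Finset.sum_congr rfl fun a _ => ?_
  have e1 : ∀ a, pd a (v + w) = pd a v + pd a w := fun a => by
    funext z
    exact rpd_add (hv.diff z) (hw.diff z)
  have e2 : pd a (pd a v + pd a w) = pd a (pd a v) + pd a (pd a w) := by
    funext z
    exact rpd_add ((hv.d a).diff z) ((hw.d a).diff z)
  rw [e1, e2]
  simp only [Pi.add_apply]
  ring

lemma NN_smul {v : E n → ℝ} (hv : TP v) (k : ℝ) (z : E n) : NN (k • v) z = k * NN v z := by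
  unfold NN
  rw [Finset.mul_sum]
  refine Finset.sum_congr rfl fun a _ => ?_
  have e1 : ∀ {w : E n → ℝ}, TP w → pd a (k • w) = k • pd a w := fun {w} hw => by
    funext z
    show fderiv ℝ (k • w) z (ei a) = k * fderiv ℝ w z (ei a)
    rw [fderiv_const_smul (hw.diff z)]
    rfl
  rw [e1 hv, e1 (hv.d a)]
  simp only [Pi.smul_apply, smul_eq_mul]
  ring

/-- the subspace `{N v + κ}` of `L²` -/
def SS (n : ℕ) : Submodule ℝ (Lp ℝ 2 (gQ n)) where
  carrier := {x | ∃ v ∈ TS n, ∃ κ : ℝ, (x : E n → ℝ) =ᵐ[gQ n] fun z => NN v z + κ}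
  add_mem' := by
    rintro x y ⟨v, hv, κ, hx⟩ ⟨w, hw, l, hy⟩
    refine ⟨v + w, Submodule.add_mem _ hv hw, κ + l, ?_⟩
    filter_upwards [Lp.coeFn_add x y, hx, hy] with z h1 h2 h3
    rw [h1, Pi.add_apply, h2, h3, NN_add (TP_of hv) (TP_of hw)]
    ring
  zero_mem' := by
    refine ⟨0, Submodule.zero_mem _, 0, ?_⟩
    filter_upwards [Lp.coeFn_zero ℝ 2 (gQ n)] with z h1
    rw [h1]
    have h2 : NN (0 : E n → ℝ) z = 0 := by
      have := NN_smul (TP_of (Submodule.zero_mem (TS n))) 0 z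
      simpa using this
    rw [h2]
    simp
  smul_mem' := by
    rintro k x ⟨v, hv, κ, hx⟩
    refine ⟨k • v, Submodule.smul_mem _ _ hv, k * κ, ?_⟩
    filter_upwards [Lp.coeFn_smul k x, hx] with z h1 h2
    rw [h1, Pi.smul_apply, h2, NN_smul (TP_of hv), smul_eq_mul]
    ring

lemma SS_orth : (SS n)ᗮ = ⊥ := by
  rw [Submodule.eq_bot_iff]
  intro f hf
  rw [Submodule.mem_orthogonal] at hf
  have hm : MemLp (f : E n → ℝ) 2 (gQ n) := Lp.memLp f
  have h0 : ∀ v ∈ TS n, ∀ κ : ℝ, ∫ z, f z * (NN v z + κ) ∂(gQ n) = 0 := by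
    intro v hv κ
    have hg : GM (fun z => NN v z + κ) := (TP_of hv).gm_NN.add (GM.const κ)
    have h1 := hf (hg.memLp.toLp _) ⟨v, hv, κ, hg.memLp.coeFn_toLp⟩
    rw [L2.inner_def] at h1
    rw [← h1]
    refine integral_congr_ae ?_
    filter_upwards [hg.memLp.coeFn_toLp] with z hz
    rw [hz]
    simp [mul_comm]
  have h1 : ∫ z, f z ∂(gQ n) = 0 := by
    have h := h0 0 (Submodule.zero_mem _) 1
    have h2 : ∀ z : E n, NN (0 : E n → ℝ) z = 0 := by
      intro z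
      have := NN_smul (TP_of (Submodule.zero_mem (TS n))) 0 z
      simpa using this
    simpa [h2] using h
  have h2 : ∀ (c : E n) (α β : ℝ), ∫ z, f z * NN (tr c α β) z ∂(gQ n) = 0 := by
    intro c α β
    simpa using h0 _ (tr_mem c α β) 0
  have h3 := ae_zero_of_moments (hm.integrable (by norm_num)) fun c α β =>
    moment_zero hm h1 h2 c α β
  exact Lp.ext (h3.trans (Lp.coeFn_zero ℝ 2 (gQ n)).symm)

/-- density: every `u ∈ L²` is approximated by `N v + κ` -/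
lemma dense_NN {u : E n → ℝ} (hu : MemLp u 2 (gQ n)) {ε : ℝ} (hε : 0 < ε) :
    ∃ v ∈ TS n, ∃ κ : ℝ, ∫ z, (u z - (NN v z + κ)) ^ 2 ∂(gQ n) ≤ ε := by
  have h1 : (SS n).topologicalClosure = ⊤ := Submodule.topologicalClosure_eq_top_iff.2 SS_orth
  have h2 : hu.toLp u ∈ closure (SS n : Set (Lp ℝ 2 (gQ n))) := by
    rw [← Submodule.topologicalClosure_coe, h1]
    exact Set.mem_univ _
  obtain ⟨y, ⟨v, hv, κ, hy⟩, hd⟩ := Metric.mem_closure_iff.1 h2 (Real.sqrt ε) (Real.sqrt_pos.2 hε)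
  refine ⟨v, hv, κ, ?_⟩
  have h3 : ‖hu.toLp u - y‖ ^ 2 ≤ ε := by
    rw [dist_eq_norm] at hd
    calc ‖hu.toLp u - y‖ ^ 2 ≤ Real.sqrt ε ^ 2 := by gcongr
      _ = ε := Real.sq_sqrt hε.le
  refine le_trans (le_of_eq ?_) h3
  rw [← real_inner_self_eq_norm_sq, L2.inner_def]
  refine integral_congr_ae ?_
  filter_upwards [hu.coeFn_toLp, hy, Lp.coeFn_sub (hu.toLp u) y] with z e1 e2 e3
  rw [e3, Pi.sub_apply, e1, e2]
  simp [pow_two]

/-- the field `X` of the trial `Y` -/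
def XF (u : E n → ℝ) (Y : Fin n → Fin n → E n → ℝ) (i : Fin n) (z : E n) : ℝ :=
  pd i u z - ∑ a, (z a * Y a i z - pd a (Y a i) z)

lemma gm_XF {u : E n → ℝ} {K : NNReal} (hu : LipschitzWith K u) {Y : Fin n → Fin n → E n → ℝ}
    (hY : ∀ a i, ∃ L : NNReal, LipschitzWith L (Y a i)) (i : Fin n) : GM (XF u Y i) := by
  refine (gm_pd_lip hu i).sub (GM.sum _ fun a _ => ?_)
  obtain ⟨L, hL⟩ := hY a i
  exact ((GM.coord a).mul (gm_lip hL)).sub (gm_pd_lip hL a)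

/-- `∫ u N v` through the trial fields -/
lemma int_u_NN {u : E n → ℝ} {K : NNReal} (hu : LipschitzWith K u)
    {Y : Fin n → Fin n → E n → ℝ} (hY : ∀ a i, ∃ L : NNReal, LipschitzWith L (Y a i))
    {v : E n → ℝ} (h : TP v) :
    ∫ z, u z * NN v z ∂(gQ n) = ∑ i, ∫ z, XF u Y i z * pd i v z ∂(gQ n) +
      ∑ i, ∑ a, ∫ z, Y a i z * pd a (pd i v) z ∂(gQ n) := by
  rw [int_NN hu h, ← Finset.sum_add_distrib]
  refine Finset.sum_congr rfl fun i _ => ?_
  have e1 : ∀ a, ∫ z, Y a i z * pd a (pd i v) z ∂(gQ n) =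
      ∫ z, (z a * Y a i z - pd a (Y a i) z) * pd i v z ∂(gQ n) := by
    intro a
    obtain ⟨L, hL⟩ := hY a i
    have h1 := ibp hL (h.d i).c1 a (h.d i).gm ((h.d i).d a).gm
    have g1 := (gm_lip hL).mul ((GM.coord a).mul (h.d i).gm)
    have g2 := (gm_lip hL).mul ((h.d i).d a).gm
    have g3 := (gm_pd_lip hL a).mul (h.d i).gm
    have e2 : ∫ z, Y a i z * (z a * pd i v z - pd a (pd i v) z) ∂(gQ n) =
        ∫ z, Y a i z * (z a * pd i v z) ∂(gQ n) - ∫ z, Y a i z * pd a (pd i v) z ∂(gQ n) := by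
      rw [← integral_sub g1.integrable g2.integrable]
      exact integral_congr_ae (ae_of_all _ fun z => by ring)
    have e3 : ∫ z, (z a * Y a i z - pd a (Y a i) z) * pd i v z ∂(gQ n) =
        ∫ z, Y a i z * (z a * pd i v z) ∂(gQ n) - ∫ z, pd a (Y a i) z * pd i v z ∂(gQ n) := by
      rw [← integral_sub g1.integrable g3.integrable]
      exact integral_congr_ae (ae_of_all _ fun z => by ring)
    rw [e3, h1, e2]
    ring
  rw [Finset.sum_congr rfl fun a _ => e1 a, ← integral_finsetSum, ← integral_add]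
  · refine integral_congr_ae (ae_of_all _ fun z => ?_)
    simp only [XF, ← Finset.sum_mul]
    ring
  · exact ((gm_XF hu hY i).mul (h.d i).gm).integrable
  · refine integrable_finsetSum _ fun a _ => ?_
    obtain ⟨L, hL⟩ := hY a i
    exact ((((GM.coord a).mul (gm_lip hL)).sub (gm_pd_lip hL a)).mul (h.d i).gm).integrable
  · intro a _
    obtain ⟨L, hL⟩ := hY a i
    exact ((((GM.coord a).mul (gm_lip hL)).sub (gm_pd_lip hL a)).mul (h.d i).gm).integrable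

lemma two_int_le {f g : E n → ℝ} (hf : GM f) (hg : GM g) :
    2 * ∫ z, f z * g z ∂(gQ n) ≤ ∫ z, f z ^ 2 ∂(gQ n) + ∫ z, g z ^ 2 ∂(gQ n) := by
  rw [← integral_const_mul, ← integral_add hf.sq.integrable hg.sq.integrable]
  refine integral_mono ((hf.mul hg).integrable.const_mul 2)
    (hf.sq.integrable.add hg.sq.integrable) fun z => ?_
  show 2 * (f z * g z) ≤ f z ^ 2 + g z ^ 2
  nlinarith [sq_nonneg (f z - g z)]

/-- the main inequality on test functions -/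
lemma main_ineq {u : E n → ℝ} {K : NNReal} (hu : LipschitzWith K u)
    {Y : Fin n → Fin n → E n → ℝ} (hY : ∀ a i, ∃ L : NNReal, LipschitzWith L (Y a i))
    {v : E n → ℝ} (h : TP v) :
    2 * ∫ z, u z * NN v z ∂(gQ n) ≤ (∑ i, ∫ z, XF u Y i z ^ 2 ∂(gQ n) +
      ∑ i, ∑ a, ∫ z, Y a i z ^ 2 ∂(gQ n)) + ∫ z, NN v z ^ 2 ∂(gQ n) := by
  rw [int_u_NN hu hY h, int_NN_sq h, mul_add, Finset.mul_sum, Finset.mul_sum]
  have h1 : ∑ i, 2 * ∫ z, XF u Y i z * pd i v z ∂(gQ n) ≤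
      ∑ i, ∫ z, XF u Y i z ^ 2 ∂(gQ n) + ∑ i, ∫ z, pd i v z ^ 2 ∂(gQ n) := by
    rw [← Finset.sum_add_distrib]
    exact Finset.sum_le_sum fun i _ => two_int_le (gm_XF hu hY i) (h.d i).gm
  have h2 : ∑ i, 2 * ∑ a, ∫ z, Y a i z * pd a (pd i v) z ∂(gQ n) ≤
      ∑ i, ∑ a, ∫ z, Y a i z ^ 2 ∂(gQ n) + ∑ i, ∑ a, ∫ z, pd a (pd i v) z ^ 2 ∂(gQ n) := by
    rw [← Finset.sum_add_distrib]
    refine Finset.sum_le_sum fun i _ => ?_
    rw [Finset.mul_sum, ← Finset.sum_add_distrib]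
    refine Finset.sum_le_sum fun a _ => ?_
    obtain ⟨L, hL⟩ := hY a i
    exact two_int_le (gm_lip hL) ((h.d i).d a).gm
  linarith

/-- `∫ N v = 0` -/
lemma int_NN_zero {v : E n → ℝ} (h : TP v) : ∫ z, NN v z ∂(gQ n) = 0 := by
  have h1 := int_NN (f := fun _ : E n => (1 : ℝ)) (K := 0) (LipschitzWith.const 1) h
  simp only [one_mul] at h1
  rw [h1]
  refine Finset.sum_eq_zero fun a _ => ?_
  have : ∀ z : E n, pd a (fun _ : E n => (1 : ℝ)) z = 0 := fun z => rpd_const a 1 z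
  simp [this]

/-- **SP-DUAL**, with integrals against the Gaussian measure `gQ n` -/
theorem dual_gQ {u : E n → ℝ} {K : NNReal} (hu : LipschitzWith K u)
    {Y : Fin n → Fin n → E n → ℝ} (hY : ∀ a i, ∃ L : NNReal, LipschitzWith L (Y a i)) :
    ∫ z, u z ^ 2 ∂(gQ n) - (∫ z, u z ∂(gQ n)) ^ 2 ≤
      ∑ i, ∫ z, XF u Y i z ^ 2 ∂(gQ n) + ∑ i, ∑ a, ∫ z, Y a i z ^ 2 ∂(gQ n) := by
  set A := ∑ i, ∫ z, XF u Y i z ^ 2 ∂(gQ n) + ∑ i, ∑ a, ∫ z, Y a i z ^ 2 ∂(gQ n) with hA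
  refine le_of_forall_pos_le_add fun ε hε => ?_
  obtain ⟨v, hv, κ, hk⟩ := dense_NN (gm_lip hu).memLp hε
  have h := TP_of hv
  have gu := gm_lip hu
  have gn := h.gm_NN
  set m := ∫ z, u z ∂(gQ n) with hm
  have h1 := main_ineq hu hY h
  have h2 := int_NN_zero h
  have e1 : ∫ z, (u z - (NN v z + κ)) ^ 2 ∂(gQ n) =
      ∫ z, u z ^ 2 ∂(gQ n) - 2 * ∫ z, u z * NN v z ∂(gQ n) + ∫ z, NN v z ^ 2 ∂(gQ n) -
        2 * κ * m + κ ^ 2 := by
    have e2 : ∀ z, (u z - (NN v z + κ)) ^ 2 = ((u z ^ 2 - 2 * (u z * NN v z) + NN v z ^ 2) +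
        (2 * κ * NN v z - 2 * κ * u z)) + κ ^ 2 := fun z => by ring
    simp only [e2]
    have i1 := gu.sq.integrable
    have i2 := (gu.mul gn).integrable.const_mul 2
    have i3 := gn.sq.integrable
    have i4 := gn.integrable.const_mul (2 * κ)
    have i5 := gu.integrable.const_mul (2 * κ)
    have j1 : Integrable (fun z => u z ^ 2 - 2 * (u z * NN v z)) (gQ n) := i1.sub i2
    have j2 : Integrable (fun z => u z ^ 2 - 2 * (u z * NN v z) + NN v z ^ 2) (gQ n) := j1.add i3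
    have j3 : Integrable (fun z => 2 * κ * NN v z - 2 * κ * u z) (gQ n) := i4.sub i5
    have j4 : Integrable (fun z => u z ^ 2 - 2 * (u z * NN v z) + NN v z ^ 2 +
        (2 * κ * NN v z - 2 * κ * u z)) (gQ n) := j2.add j3
    rw [integral_add j4 (integrable_const _), integral_add j2 j3, integral_add j1 i3,
      integral_sub i1 i2, integral_sub i4 i5, integral_const_mul, integral_const_mul,
      integral_const_mul, h2, integral_const, probReal_univ]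
    simp only [smul_eq_mul, ← hm]
    ring
  rw [e1] at hk
  nlinarith [sq_nonneg (κ - m)]

/-- **SP-DUAL** in the language of `Ex Q` -/
theorem dual {u : E n → ℝ} {K : NNReal} (hu : LipschitzWith K u)
    {Y : Fin n → Fin n → E n → ℝ} (hY : ∀ a i, ∃ L : NNReal, LipschitzWith L (Y a i)) :
    Ex Q (fun z => u z ^ 2) - (Ex Q u) ^ 2 ≤
      ∑ i, Ex Q (fun z => XF u Y i z ^ 2) + ∑ i, ∑ a, Ex Q (fun z => Y a i z ^ 2) := by
  simp only [Ex_eq]
  exact dual_gQ hu hY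

end Vale.Agent.P254.S692
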