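import Vale.Agent.P254.S.H130.Gauss

/-!
# P254, block SP: Gaussian integration by parts for Lipschitz functions

`∫ ∂ₐf · w dγ = ∫ f · (zₐ w - ∂ₐw) dγ` for `f` Lipschitz and `w` `C¹` of polynomial growth.
-/

open MeasureTheory Filter
open scoped ENNReal Topology

noncomputable section

namespace Vale.Agent.P254.S692

open Vale.Agent.P227.M Vale.Agent.P254.S Vale.Agent.P254.S130

variable {n : ℕ}

lemma regQ : Reg (Q : E n → ℝ) 1 1 := by
  have h := (MM.Start102.nice_quad (n := n) (a := 1) (b := 1) one_pos le_rfl).toReg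
  have e : (fun x : E n => (1 : ℝ) / 2 * ‖x‖ ^ 2) = Q := by
    funext x
    unfold Q
    ring
  rwa [e] at h

/-- measurable of polynomial growth -/
def GM (f : E n → ℝ) : Prop :=
  AEStronglyMeasurable f volume ∧ ∃ (B : ℝ) (k : ℕ), 0 ≤ B ∧ ∀ x, |f x| ≤ B * (1 + ‖x‖) ^ k

lemma Gr.gm {f : E n → ℝ} (hf : Gr f) : GM f := ⟨hf.1.aestronglyMeasurable, hf.2⟩

lemma gr_maj (B : ℝ) (k : ℕ) : Gr (fun x : E n => B * (1 + ‖x‖) ^ k) :=
  (((Gr.const 1).add Gr.norm).pow k).const_mul B

lemma GM.integrable_exp {f : E n → ℝ} (hf : GM f) :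
    Integrable (fun z => f z * Real.exp (-Q z)) volume := by
  obtain ⟨hm, B, k, hB, hb⟩ := hf
  refine (regQ.integrable_gr (gr_maj B k)).mono' (hm.mul
    (Real.continuous_exp.comp cont_Q.neg).aestronglyMeasurable) (ae_of_all _ fun x => ?_)
  rw [norm_mul, Real.norm_eq_abs, Real.norm_eq_abs, Real.abs_exp]
  exact mul_le_mul_of_nonneg_right (hb x) (Real.exp_pos _).le

lemma integrable_gQ_iff {f : E n → ℝ} :
    Integrable f (gQ n) ↔ Integrable (fun z => f z * Real.exp (-Q z)) volume := by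
  unfold gQ
  have hm : Measurable fun z : E n => ENNReal.ofReal (dens z) :=
    dens_cont.measurable.ennreal_ofReal
  rw [integrable_withDensity_iff_integrable_smul' hm (ae_of_all _ fun z => ENNReal.ofReal_lt_top)]
  have e : (fun z : E n => (ENNReal.ofReal (dens z)).toReal • f z) =
      fun z => (∫ z : E n, Real.exp (-Q z))⁻¹ * (f z * Real.exp (-Q z)) := by
    funext z
    rw [ENNReal.toReal_ofReal (dens_pos z).le, smul_eq_mul, dens]
    ring
  rw [e]
  constructor
  · intro h
    have h2 := h.const_mul (∫ z : E n, Real.exp (-Q z))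
    refine h2.congr (ae_of_all _ fun z => ?_)
    show _ * (_ * _) = _
    rw [← mul_assoc, mul_inv_cancel₀ Z_pos.ne', one_mul]
  · intro h
    exact h.const_mul _

lemma GM.integrable {f : E n → ℝ} (hf : GM f) : Integrable f (gQ n) :=
  integrable_gQ_iff.2 hf.integrable_exp

lemma GM.mul {f g : E n → ℝ} (hf : GM f) (hg : GM g) : GM fun z => f z * g z := by
  obtain ⟨hf, A, j, hA, ha⟩ := hf
  obtain ⟨hg, B, k, hB, hb⟩ := hg
  refine ⟨hf.mul hg, A * B, j + k, mul_nonneg hA hB, fun x => ?_⟩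
  rw [abs_mul, pow_add]
  calc |f x| * |g x| ≤ (A * (1 + ‖x‖) ^ j) * (B * (1 + ‖x‖) ^ k) :=
        mul_le_mul (ha x) (hb x) (abs_nonneg _) (by positivity)
    _ = _ := by ring

lemma GM.add {f g : E n → ℝ} (hf : GM f) (hg : GM g) : GM fun z => f z + g z := by
  obtain ⟨hf, A, j, hA, ha⟩ := hf
  obtain ⟨hg, B, k, hB, hb⟩ := hg
  refine ⟨hf.add hg, A + B, j + k, add_nonneg hA hB, fun x => ?_⟩
  have h1 := one_le_one_add_norm x
  calc |f x + g x| ≤ |f x| + |g x| := abs_add_le _ _
    _ ≤ A * (1 + ‖x‖) ^ j + B * (1 + ‖x‖) ^ k := add_le_add (ha x) (hb x)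
    _ ≤ A * (1 + ‖x‖) ^ (j + k) + B * (1 + ‖x‖) ^ (j + k) := by
        gcongr <;> omega
    _ = _ := by ring

lemma GM.const (c : ℝ) : GM (fun _ : E n => c) := Gr.gm (Gr.const c)

lemma GM.coord (i : Fin n) : GM (fun x : E n => x i) := Gr.gm (Gr.coord i)

lemma GM.neg {f : E n → ℝ} (hf : GM f) : GM fun z => -f z := by
  simpa using (GM.const (-1)).mul hf

lemma GM.sub {f g : E n → ℝ} (hf : GM f) (hg : GM g) : GM fun z => f z - g z := by
  simpa [sub_eq_add_neg] using hf.add hg.neg

lemma GM.sum {κ : Type*} (s : Finset κ) {f : κ → E n → ℝ} (h : ∀ k ∈ s, GM (f k)) :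
    GM fun z => ∑ k ∈ s, f k z := by
  classical
  induction s using Finset.induction_on with
  | empty => simp only [Finset.sum_empty]; exact GM.const 0
  | insert k s hk ih =>
    simp only [Finset.sum_insert hk]
    exact (h k (Finset.mem_insert_self _ _)).add (ih fun j hj => h j (Finset.mem_insert_of_mem hj))

lemma GM.sq {f : E n → ℝ} (hf : GM f) : GM fun z => f z ^ 2 := by
  simpa [pow_two] using hf.mul hf

lemma GM.of_bdd {f : E n → ℝ} (hf : AEStronglyMeasurable f volume) {B : ℝ}
    (hB : ∀ x, |f x| ≤ B) : GM f := by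
  refine ⟨hf, |B|, 0, abs_nonneg _, fun x => ?_⟩
  simpa using (hB x).trans (le_abs_self B)

lemma gm_lip {f : E n → ℝ} {K : NNReal} (hf : LipschitzWith K f) : GM f := by
  refine ⟨hf.continuous.aestronglyMeasurable, |f 0| + K, 1, by positivity, fun x => ?_⟩
  have h := hf.dist_le_mul x 0
  rw [Real.dist_eq, dist_zero_right] at h
  have h2 : |f x| ≤ |f 0| + K * ‖x‖ := by
    have := abs_add_le (f x - f 0) (f 0)
    rw [sub_add_cancel] at this
    linarith
  have h3 : 0 ≤ |f 0| * ‖x‖ := by positivity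
  have h4 : (0 : ℝ) ≤ K := K.2
  rw [pow_one]
  nlinarith [norm_nonneg x, abs_nonneg (f 0)]

lemma measurable_pd (f : E n → ℝ) (a : Fin n) : Measurable (pd a f) :=
  measurable_fderiv_apply_const ℝ f (ei a)

lemma gm_pd_lip {f : E n → ℝ} {K : NNReal} (hf : LipschitzWith K f) (a : Fin n) :
    GM (pd a f) :=
  GM.of_bdd (measurable_pd f a).aestronglyMeasurable fun z =>
    (abs_pd_le_norm f z a).trans (norm_fderiv_le_of_lipschitz ℝ hf)

/-! ### the cutoff -/

/-- smooth bump: `1` on the unit ball, supported in the ball of radius `2` -/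
def bmp (n : ℕ) : ContDiffBump (0 : E n) := ⟨1, 2, one_pos, one_lt_two⟩

lemma bmp_fderiv_bdd : ∃ M : ℝ, 0 ≤ M ∧ ∀ z : E n, ‖fderiv ℝ (bmp n) z‖ ≤ M := by
  have h1 : Continuous fun z : E n => fderiv ℝ (bmp n) z :=
    (bmp n).contDiff.continuous_fderiv (n := 1) (by norm_num)
  have h2 : HasCompactSupport (fun z : E n => fderiv ℝ (bmp n) z) :=
    (bmp n).hasCompactSupport.fderiv ℝ
  obtain ⟨M, hM⟩ := h2.exists_bound_of_continuous h1
  exact ⟨M, (norm_nonneg _).trans (hM 0), hM⟩

/-- rescaled cutoff -/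
def cut (R : ℝ) (z : E n) : ℝ := bmp n (R⁻¹ • z)

lemma cut_contDiff (R : ℝ) : ContDiff ℝ 1 (cut R : E n → ℝ) := by
  unfold cut
  exact (bmp n).contDiff.comp (contDiff_const_smul _)

lemma cut_nonneg (R : ℝ) (z : E n) : 0 ≤ cut R z := (bmp n).nonneg

lemma cut_le_one (R : ℝ) (z : E n) : cut R z ≤ 1 := (bmp n).le_one

lemma cut_eq_one {R : ℝ} (hR : 0 < R) {z : E n} (hz : ‖z‖ ≤ R) : cut R z = 1 := by
  refine (bmp n).one_of_mem_closedBall ?_
  rw [mem_closedBall_zero_iff, norm_smul, norm_inv, Real.norm_of_nonneg hR.le]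
  show R⁻¹ * ‖z‖ ≤ 1
  rw [inv_mul_le_iff₀ hR]
  simpa using hz

lemma cut_compact {R : ℝ} (hR : 0 < R) : HasCompactSupport (cut R : E n → ℝ) := by
  have : (cut R : E n → ℝ) = (bmp n) ∘ (Homeomorph.smulOfNeZero R⁻¹ (inv_ne_zero hR.ne')) := rfl
  rw [this]
  exact (bmp n).hasCompactSupport.comp_homeomorph _

lemma cut_pd {M : ℝ} (hM : ∀ z : E n, ‖fderiv ℝ (bmp n) z‖ ≤ M) {R : ℝ} (hR : 0 < R)
    (a : Fin n) (z : E n) : |pd a (cut R) z| ≤ M / R := by
  have h1 : HasFDerivAt (cut R : E n → ℝ)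
      ((fderiv ℝ (bmp n) (R⁻¹ • z)).comp (R⁻¹ • ContinuousLinearMap.id ℝ (E n))) z := by
    have h2 : HasFDerivAt (bmp n) (fderiv ℝ (bmp n) (R⁻¹ • z)) (R⁻¹ • z) :=
      (((bmp n).contDiff (n := 1)).differentiable (by norm_num) _).hasFDerivAt
    exact h2.comp z ((hasFDerivAt_id z).const_smul R⁻¹)
  unfold pd
  rw [h1.fderiv]
  have h3 : ((fderiv ℝ (bmp n) (R⁻¹ • z)).comp (R⁻¹ • ContinuousLinearMap.id ℝ (E n))) (ei a) =
      R⁻¹ * fderiv ℝ (bmp n) (R⁻¹ • z) (ei a) := by
    simp
  rw [h3, abs_mul, abs_of_pos (inv_pos.2 hR)]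
  have h4 := (fderiv ℝ (bmp n) (R⁻¹ • z)).le_opNorm (ei a)
  rw [norm_ei, mul_one, Real.norm_eq_abs] at h4
  rw [div_eq_inv_mul]
  exact mul_le_mul_of_nonneg_left (h4.trans (hM _)) (inv_pos.2 hR).le

/-- integration by parts against a compactly supported `C¹` function -/
lemma ibp_cpt {f g : E n → ℝ} {K : NNReal} (hf : LipschitzWith K f) (hg : ContDiff ℝ 1 g)
    (hc : HasCompactSupport g) (a : Fin n) :
    ∫ z, pd a f z * g z = -∫ z, pd a g z * f z := by
  obtain ⟨D, hD⟩ := ContDiff.lipschitzWith_of_hasCompactSupport hc hg (by norm_num)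
  have h := hf.integral_lineDeriv_mul_eq (μ := (volume : Measure (E n))) hD hc (ei a)
  rw [← integral_neg]
  have h1 : ∫ z, pd a f z * g z = ∫ z, lineDeriv ℝ f z (ei a) * g z := by
    refine integral_congr_ae ?_
    filter_upwards [hf.ae_differentiableAt] with z hz
    rw [hz.lineDeriv_eq_fderiv]
    rfl
  rw [h1, h]
  refine integral_congr_ae (ae_of_all _ fun z => ?_)
  show lineDeriv ℝ g z (-ei a) * f z = -(pd a g z * f z)
  rw [(hg.differentiable (by norm_num) z).lineDeriv_eq_fderiv, map_neg]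
  unfold pd
  ring

lemma gr_iff_gm {f : E n → ℝ} (hf : Continuous f) (h : GM f) : Gr f := ⟨hf, h.2⟩

/-- **integration by parts** in Gauss space -/
theorem ibp {f w : E n → ℝ} {K : NNReal} (hf : LipschitzWith K f) (hw : ContDiff ℝ 1 w)
    (a : Fin n) (h0 : GM w) (h1 : GM (pd a w)) :
    ∫ z, pd a f z * w z ∂(gQ n) = ∫ z, f z * (z a * w z - pd a w z) ∂(gQ n) := by
  rw [← Ex_eq, ← Ex_eq]
  unfold Ex
  congr 1
  set g : E n → ℝ := fun z => w z * Real.exp (-Q z) with hg
  have hQ : ContDiff ℝ 1 (Q : E n → ℝ) := by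
    unfold Q
    exact (contDiff_norm_sq ℝ).div_const 2
  have hgc : ContDiff ℝ 1 g := hw.mul (Real.contDiff_exp.comp hQ.neg)
  have hpdQ : ∀ z : E n, pd a Q z = z a := by
    intro z
    have := MM.Start102.pd_quad (n := n) 1 a
    have e : (fun x : E n => (1 : ℝ) / 2 * ‖x‖ ^ 2) = Q := by
      funext x
      unfold Q
      ring
    rw [e] at this
    rw [this]
    simp
  have hpdg : ∀ z, pd a g z = (pd a w z - z a * w z) * Real.exp (-Q z) := by
    intro z
    have hE : HasFDerivAt (fun z : E n => Real.exp (-Q z))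
        (Real.exp (-Q z) • (-fderiv ℝ Q z)) z :=
      ((hQ.differentiable (by norm_num) z).hasFDerivAt.neg).exp
    have hW := (hw.differentiable (by norm_num) z).hasFDerivAt
    have hh : HasFDerivAt g (w z • Real.exp (-Q z) • -fderiv ℝ Q z +
        Real.exp (-Q z) • fderiv ℝ w z) z := hW.mul hE
    unfold pd
    rw [hh.fderiv]
    have := hpdQ z
    unfold pd at this
    simp only [_root_.add_apply, _root_.smul_apply, _root_.neg_apply, smul_eq_mul]
    rw [this]
    ring
  have hfg : GM f := gm_lip hf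
  have hpf : GM (pd a f) := gm_pd_lip hf a
  have hza : GM (fun z : E n => z a) := GM.coord a
  obtain ⟨M, hM0, hM⟩ := bmp_fderiv_bdd (n := n)
  -- truncated identity
  have key : ∀ k : ℕ, ∫ z, pd a f z * (cut (k + 1 : ℝ) z * g z) =
      -∫ z, (pd a (cut (k + 1 : ℝ)) z * g z + cut (k + 1 : ℝ) z * pd a g z) * f z := by
    intro k
    have hR : (0 : ℝ) < k + 1 := by positivity
    rw [ibp_cpt hf ((cut_contDiff _).mul hgc) ((cut_compact hR).mul_right) a]
    congr 1
    refine integral_congr_ae (ae_of_all _ fun z => ?_)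
    show pd a (fun z => cut (k + 1 : ℝ) z * g z) z * f z = _
    rw [rpd_mul ((cut_contDiff _).differentiable (by norm_num) z)
      (hgc.differentiable (by norm_num) z)]
  have hcm : ∀ k : ℕ, Continuous (cut (k + 1 : ℝ) : E n → ℝ) := fun k => (cut_contDiff _).continuous
  have L1 : Tendsto (fun k : ℕ => ∫ z, pd a f z * (cut (k + 1 : ℝ) z * g z)) atTop
      (𝓝 (∫ z, pd a f z * g z)) := by
    have hi : Integrable (fun z => |pd a f z * w z| * Real.exp (-Q z)) volume := by
      have := (hpf.mul h0).integrable_exp.norm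
      refine this.congr (ae_of_all _ fun z => ?_)
      show ‖pd a f z * w z * Real.exp (-Q z)‖ = _
      rw [norm_mul, Real.norm_eq_abs, Real.norm_eq_abs, Real.abs_exp]
    refine tendsto_integral_of_dominated_convergence _ (fun k => ?_) hi (fun k => ?_) ?_
    · exact (measurable_pd f a).aestronglyMeasurable.mul
        ((hcm k).aestronglyMeasurable.mul hgc.continuous.aestronglyMeasurable)
    · refine ae_of_all _ fun z => ?_
      rw [norm_mul, norm_mul, hg]
      simp only [norm_mul, Real.norm_eq_abs, Real.abs_exp, abs_mul]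
      rw [abs_of_nonneg (cut_nonneg _ _)]
      have := cut_le_one (k + 1 : ℝ) z
      have h5 : 0 ≤ |pd a f z| * (|w z| * Real.exp (-Q z)) := by positivity
      nlinarith
    · refine ae_of_all _ fun z => ?_
      refine tendsto_const_nhds.congr' ?_
      obtain ⟨N, hN⟩ := exists_nat_gt ‖z‖
      filter_upwards [eventually_ge_atTop N] with k hk
      have hk' : (N : ℝ) ≤ k := by exact_mod_cast hk
      rw [cut_eq_one (by positivity) (by linarith), one_mul]
  have L2 : Tendsto (fun k : ℕ =>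
      ∫ z, (pd a (cut (k + 1 : ℝ)) z * g z + cut (k + 1 : ℝ) z * pd a g z) * f z) atTop
      (𝓝 (∫ z, pd a g z * f z)) := by
    have hi : Integrable (fun z => ((M * |w z| + |pd a w z - z a * w z|) * |f z|) *
        Real.exp (-Q z)) volume := by
      have A : GM (fun z => |w z|) := ⟨h0.1.norm, by
        obtain ⟨_, B, k, hB, hb⟩ := h0
        exact ⟨B, k, hB, fun x => by simpa using hb x⟩⟩
      have B : GM (fun z => |pd a w z - z a * w z|) := by
        have h := h1.sub (hza.mul h0)
        obtain ⟨hm, B, k, hB, hb⟩ := h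
        exact ⟨hm.norm, B, k, hB, fun x => by simpa using hb x⟩
      have C : GM (fun z => |f z|) := by
        obtain ⟨hm, B, k, hB, hb⟩ := hfg
        exact ⟨hm.norm, B, k, hB, fun x => by simpa using hb x⟩
      exact ((((GM.const M).mul A).add B).mul C).integrable_exp
    refine tendsto_integral_of_dominated_convergence _ (fun k => ?_) hi (fun k => ?_) ?_
    · refine AEStronglyMeasurable.mul (AEStronglyMeasurable.add ?_ ?_)
        hf.continuous.aestronglyMeasurable
      · exact (measurable_pd _ a).aestronglyMeasurable.mul hgc.continuous.aestronglyMeasurable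
      · exact (hcm k).aestronglyMeasurable.mul (measurable_pd g a).aestronglyMeasurable
    · refine ae_of_all _ fun z => ?_
      have hR : (0 : ℝ) < k + 1 := by positivity
      have hc1 := cut_pd hM hR a z
      have hc2 : M / (k + 1 : ℝ) ≤ M := by
        rw [div_le_iff₀ hR]
        have : (0 : ℝ) ≤ k := by positivity
        nlinarith
      rw [norm_mul, Real.norm_eq_abs, Real.norm_eq_abs, hpdg]
      have e1 : |pd a (cut (k + 1 : ℝ)) z * g z + cut (k + 1 : ℝ) z *
          ((pd a w z - z a * w z) * Real.exp (-Q z))| ≤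
          (M * |w z| + |pd a w z - z a * w z|) * Real.exp (-Q z) := by
        refine (abs_add_le _ _).trans ?_
        rw [add_mul]
        refine add_le_add ?_ ?_
        · rw [abs_mul, hg]
          simp only [abs_mul, Real.abs_exp]
          rw [mul_assoc]
          exact mul_le_mul_of_nonneg_right (hc1.trans hc2) (by positivity)
        · rw [abs_mul, abs_mul, Real.abs_exp, abs_of_nonneg (cut_nonneg _ _)]
          have h6 : 0 ≤ |pd a w z - z a * w z| * Real.exp (-Q z) := by positivity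
          have := cut_le_one (k + 1 : ℝ) z
          nlinarith
      calc _ ≤ ((M * |w z| + |pd a w z - z a * w z|) * Real.exp (-Q z)) * |f z| :=
            mul_le_mul_of_nonneg_right e1 (abs_nonneg _)
        _ = _ := by ring
    · refine ae_of_all _ fun z => ?_
      have t1 : Tendsto (fun k : ℕ => pd a (cut (k + 1 : ℝ)) z) atTop (𝓝 0) := by
        have t2 : Tendsto (fun k : ℕ => M / (k + 1 : ℝ)) atTop (𝓝 0) :=
          tendsto_const_nhds.div_atTop
            (tendsto_atTop_add_const_right _ _ tendsto_natCast_atTop_atTop)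
        exact squeeze_zero_norm (fun k => cut_pd hM (by positivity) a z) t2
      have t3 : Tendsto (fun k : ℕ => cut (k + 1 : ℝ) z) atTop (𝓝 1) := by
        refine tendsto_const_nhds.congr' ?_
        obtain ⟨N, hN⟩ := exists_nat_gt ‖z‖
        filter_upwards [eventually_ge_atTop N] with k hk
        have hk' : (N : ℝ) ≤ k := by exact_mod_cast hk
        rw [cut_eq_one (by positivity) (by linarith)]
      have t4 := ((t1.mul_const (g z)).add (t3.mul_const (pd a g z))).mul_const (f z)
      simpa using t4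
  have h5 : ∫ z, pd a f z * g z = -∫ z, pd a g z * f z :=
    tendsto_nhds_unique L1 ((L2.neg).congr fun k => (key k).symm)
  have e2 : ∫ z, pd a f z * w z * Real.exp (-Q z) = ∫ z, pd a f z * g z :=
    integral_congr_ae (ae_of_all _ fun z => by simp only [hg]; ring)
  rw [e2, h5, ← integral_neg]
  refine integral_congr_ae (ae_of_all _ fun z => ?_)
  show -(pd a g z * f z) = f z * (z a * w z - pd a w z) * Real.exp (-Q z)
  rw [hpdg]
  ring

end Vale.Agent.P254.S692
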