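import Vale.Agent.P254.S.H692.IBP

/-!
# P254, block SP: trigonometric test functions and the Ornstein-Uhlenbeck operator on them
-/

open MeasureTheory Filter
open scoped ENNReal Topology

noncomputable section

namespace Vale.Agent.P254.S692

open Vale.Agent.P227.M Vale.Agent.P254.S Vale.Agent.P254.S130

variable {n : ℕ}

/-- basic trigonometric function -/
def tr (c : E n) (α β : ℝ) (z : E n) : ℝ :=
  α * Real.cos (inner ℝ c z) + β * Real.sin (inner ℝ c z)

/-- trigonometric test functions -/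
def TS (n : ℕ) : Submodule ℝ (E n → ℝ) :=
  Submodule.span ℝ {f | ∃ (c : E n) (α β : ℝ), f = tr c α β}

lemma tr_mem (c : E n) (α β : ℝ) : tr c α β ∈ TS n := Submodule.subset_span ⟨c, α, β, rfl⟩

lemma tr_contDiff (c : E n) (α β : ℝ) : ContDiff ℝ (⊤ : ℕ∞) (tr c α β) := by
  unfold tr
  have h : ContDiff ℝ (⊤ : ℕ∞) fun z : E n => (inner ℝ c z : ℝ) := (innerSL ℝ c).contDiff
  exact (contDiff_const.mul (Real.contDiff_cos.comp h)).add
    (contDiff_const.mul (Real.contDiff_sin.comp h))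

lemma tr_bdd (c : E n) (α β : ℝ) (z : E n) : |tr c α β z| ≤ |α| + |β| := by
  unfold tr
  refine (abs_add_le _ _).trans (add_le_add ?_ ?_)
  · rw [abs_mul]
    exact mul_le_of_le_one_right (abs_nonneg _) (Real.abs_cos_le_one _)
  · rw [abs_mul]
    exact mul_le_of_le_one_right (abs_nonneg _) (Real.abs_sin_le_one _)

lemma pd_tr (c : E n) (α β : ℝ) (a : Fin n) : pd a (tr c α β) = tr c (β * c a) (-α * c a) := by
  funext z
  have h : HasFDerivAt (fun z : E n => (inner ℝ c z : ℝ)) (innerSL ℝ c) z :=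
    (innerSL ℝ c).hasFDerivAt
  have h1 : HasFDerivAt (tr c α β) (α • (-Real.sin (inner ℝ c z) • innerSL ℝ c) +
      β • (Real.cos (inner ℝ c z) • innerSL ℝ c)) z :=
    (h.cos.const_mul α).add (h.sin.const_mul β)
  unfold pd
  rw [h1.fderiv]
  have h2 : innerSL ℝ c (ei a : E n) = c a := by
    rw [innerSL_apply_apply]
    unfold ei
    rw [EuclideanSpace.inner_single_right]
    simp
  simp only [_root_.add_apply, _root_.smul_apply, smul_eq_mul, h2, tr]
  ring

/-- the properties of trigonometric test functions -/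
structure TP (v : E n → ℝ) : Prop where
  smooth : ContDiff ℝ (⊤ : ℕ∞) v
  bdd : ∃ B, ∀ z, |v z| ≤ B
  mem : ∀ a, pd a v ∈ TS n

lemma TP_of {v : E n → ℝ} (hv : v ∈ TS n) : TP v := by
  induction hv using Submodule.span_induction with
  | mem x h =>
    obtain ⟨c, α, β, rfl⟩ := h
    exact ⟨tr_contDiff c α β, ⟨_, tr_bdd c α β⟩, fun a => by rw [pd_tr]; exact tr_mem _ _ _⟩
  | zero =>
    refine ⟨contDiff_const, ⟨0, fun z => by simp⟩, fun a => ?_⟩
    have : pd a (0 : E n → ℝ) = 0 := by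
      funext z
      exact rpd_const a 0 z
    rw [this]
    exact Submodule.zero_mem _
  | add x y _ _ hx hy =>
    obtain ⟨A, hA⟩ := hx.bdd
    obtain ⟨B, hB⟩ := hy.bdd
    refine ⟨hx.smooth.add hy.smooth, ⟨A + B, fun z =>
      (abs_add_le _ _).trans (add_le_add (hA z) (hB z))⟩, fun a => ?_⟩
    have : pd a (x + y) = pd a x + pd a y := by
      funext z
      exact rpd_add (hx.smooth.differentiable (by simp) z) (hy.smooth.differentiable (by simp) z)
    rw [this]
    exact Submodule.add_mem _ (hx.mem a) (hy.mem a)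
  | smul k x _ hx =>
    obtain ⟨A, hA⟩ := hx.bdd
    refine ⟨contDiff_const.smul hx.smooth, ⟨|k| * A, fun z => ?_⟩, fun a => ?_⟩
    · show |k * x z| ≤ _
      rw [abs_mul]
      exact mul_le_mul_of_nonneg_left (hA z) (abs_nonneg _)
    · have : pd a (k • x) = k • pd a x := by
        funext z
        show fderiv ℝ (k • x) z (ei a) = k * fderiv ℝ x z (ei a)
        rw [fderiv_const_smul (hx.smooth.differentiable (by simp) z)]
        rfl
      rw [this]
      exact Submodule.smul_mem _ _ (hx.mem a)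

lemma TP.c1 {v : E n → ℝ} (h : TP v) : ContDiff ℝ 1 v := h.smooth.of_le (by norm_cast)

lemma TP.c2 {v : E n → ℝ} (h : TP v) : ContDiff ℝ 2 v := h.smooth.of_le (by norm_cast)

lemma TP.diff {v : E n → ℝ} (h : TP v) (z : E n) : DifferentiableAt ℝ v z :=
  h.smooth.differentiable (by simp) z

lemma TP.gm {v : E n → ℝ} (h : TP v) : GM v := by
  obtain ⟨B, hB⟩ := h.bdd
  exact GM.of_bdd h.smooth.continuous.aestronglyMeasurable hB

lemma TP.d {v : E n → ℝ} (h : TP v) (a : Fin n) : TP (pd a v) := TP_of (h.mem a)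

lemma TP.lip {v : E n → ℝ} (h : TP v) : ∃ K : NNReal, LipschitzWith K v := by
  choose B hB using fun a => (h.d a).bdd
  refine ⟨(∑ a, |B a|).toNNReal,
    lipschitzWith_of_nnnorm_fderiv_le (𝕜 := ℝ) (fun z => h.diff z) fun z => ?_⟩
  rw [Real.le_toNNReal_iff_coe_le (Finset.sum_nonneg fun a _ => abs_nonneg _), coe_nnnorm]
  refine ContinuousLinearMap.opNorm_le_bound _ (Finset.sum_nonneg fun a _ => abs_nonneg _)
    fun w => ?_
  rw [fderiv_eq_sum, Real.norm_eq_abs]
  refine (Finset.abs_sum_le_sum_abs _ _).trans ?_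
  show ∑ i, |w i * _| ≤ (∑ a, |B a|) * ‖w‖
  rw [Finset.sum_mul]
  refine Finset.sum_le_sum fun i _ => ?_
  rw [abs_mul, mul_comm]
  exact mul_le_mul ((hB i z).trans (le_abs_self _)) (abs_coord_le w i) (abs_nonneg _)
    (abs_nonneg _)

lemma TP.comm {v : E n → ℝ} (h : TP v) (i j : Fin n) : pd i (pd j v) = pd j (pd i v) := by
  funext z
  exact hess_symm h.c2 z i j

/-- the (positive) Ornstein-Uhlenbeck operator -/
def NN (v : E n → ℝ) (z : E n) : ℝ := ∑ a, (z a * pd a v z - pd a (pd a v) z)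

lemma TP.gm_NN {v : E n → ℝ} (h : TP v) : GM (NN v) :=
  GM.sum _ fun a _ => ((GM.coord a).mul (h.d a).gm).sub ((h.d a).d a).gm

lemma TP.c1_NN {v : E n → ℝ} (h : TP v) : ContDiff ℝ 1 (NN v) := by
  unfold NN
  refine ContDiff.sum fun a _ => ContDiff.sub (ContDiff.mul ?_ (h.d a).c1) ((h.d a).d a).c1
  fun_prop

lemma TP.pd_NN {v : E n → ℝ} (h : TP v) (i : Fin n) (z : E n) :
    pd i (NN v) z = pd i v z + NN (pd i v) z := by
  have e1 : pd i (NN v) z = ∑ a, pd i (fun z => z a * pd a v z - pd a (pd a v) z) z := by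
    refine rpd_sum fun a _ => ?_
    exact ((rad_diff_coord a z).mul ((h.d a).diff z)).sub (((h.d a).d a).diff z)
  rw [e1]
  have e2 : ∀ a, pd i (fun z => z a * pd a v z - pd a (pd a v) z) z =
      (if a = i then pd a v z else 0) +
        (z a * pd a (pd i v) z - pd a (pd a (pd i v)) z) := by
    intro a
    have e3 := rpd_sub (i := i) (f := fun z => z a * pd a v z) (g := pd a (pd a v))
      ((rad_diff_coord a z).mul ((h.d a).diff z)) (((h.d a).d a).diff z)
    have e4 := rpd_mul (i := i) (f := fun z => z a) (g := pd a v) (rad_diff_coord a z)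
      ((h.d a).diff z)
    have e5 := rpd_coord i a z
    rw [e3, e4, e5, (h.d a).comm i a, h.comm i a]
    split_ifs with hh <;> ring
  rw [Finset.sum_congr rfl fun a _ => e2 a, Finset.sum_add_distrib, Finset.sum_ite_eq' ]
  simp [NN]

lemma TP.gm_pd_NN {v : E n → ℝ} (h : TP v) (i : Fin n) : GM (pd i (NN v)) := by
  have : pd i (NN v) = fun z => pd i v z + NN (pd i v) z := funext fun z => h.pd_NN i z
  rw [this]
  exact (h.d i).gm.add (h.d i).gm_NN

/-- `∫ f N v = ∑ ∫ ∂ₐf ∂ₐv` -/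
lemma int_NN {f v : E n → ℝ} {K : NNReal} (hf : LipschitzWith K f) (h : TP v) :
    ∫ z, f z * NN v z ∂(gQ n) = ∑ a, ∫ z, pd a f z * pd a v z ∂(gQ n) := by
  have e : ∀ a, ∫ z, pd a f z * pd a v z ∂(gQ n) =
      ∫ z, f z * (z a * pd a v z - pd a (pd a v) z) ∂(gQ n) :=
    fun a => ibp hf (h.d a).c1 a (h.d a).gm ((h.d a).d a).gm
  rw [Finset.sum_congr rfl fun a _ => e a, ← integral_finsetSum]
  · refine integral_congr_ae (ae_of_all _ fun z => ?_)
    simp only [NN, Finset.mul_sum]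
  · intro a _
    exact ((gm_lip hf).mul (((GM.coord a).mul (h.d a).gm).sub ((h.d a).d a).gm)).integrable

/-- Bochner: `∫ (N v)² = ∑ ∫ (∂ᵢv)² + ∑ ∫ (∂ₐ∂ᵢv)²` -/
lemma int_NN_sq {v : E n → ℝ} (h : TP v) :
    ∫ z, NN v z ^ 2 ∂(gQ n) = ∑ i, ∫ z, pd i v z ^ 2 ∂(gQ n) +
      ∑ i, ∑ a, ∫ z, pd a (pd i v) z ^ 2 ∂(gQ n) := by
  have e1 : ∫ z, NN v z ^ 2 ∂(gQ n) = ∑ i, ∫ z, pd i v z * pd i (NN v) z ∂(gQ n) := by
    have e2 : ∀ i, ∫ z, pd i v z * pd i (NN v) z ∂(gQ n) =
        ∫ z, (z i * pd i v z - pd i (pd i v) z) * NN v z ∂(gQ n) := by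
      intro i
      obtain ⟨K, hK⟩ := (h.d i).lip
      have h3 := ibp hK h.c1_NN i h.gm_NN (h.gm_pd_NN i)
      have g1 := ((h.d i).d i).gm.mul h.gm_NN
      have g2 := (h.d i).gm.mul ((GM.coord i).mul h.gm_NN)
      have g3 := (h.d i).gm.mul (h.gm_pd_NN i)
      have h4 : ∫ z, pd i v z * (z i * NN v z - pd i (NN v) z) ∂(gQ n) =
          ∫ z, pd i v z * (z i * NN v z) ∂(gQ n) -
            ∫ z, pd i v z * pd i (NN v) z ∂(gQ n) := by
        rw [← integral_sub g2.integrable g3.integrable]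
        exact integral_congr_ae (ae_of_all _ fun z => by ring)
      have h5 : ∫ z, (z i * pd i v z - pd i (pd i v) z) * NN v z ∂(gQ n) =
          ∫ z, pd i v z * (z i * NN v z) ∂(gQ n) -
            ∫ z, pd i (pd i v) z * NN v z ∂(gQ n) := by
        rw [← integral_sub g2.integrable g1.integrable]
        exact integral_congr_ae (ae_of_all _ fun z => by ring)
      rw [h5, h3, h4]
      ring
    rw [Finset.sum_congr rfl fun i _ => e2 i, ← integral_finsetSum]
    · refine integral_congr_ae (ae_of_all _ fun z => ?_)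
      simp only [pow_two, ← Finset.sum_mul]
      rfl
    · intro i _
      exact ((((GM.coord i).mul (h.d i).gm).sub ((h.d i).d i).gm).mul h.gm_NN).integrable
  rw [e1, ← Finset.sum_add_distrib]
  refine Finset.sum_congr rfl fun i _ => ?_
  obtain ⟨K, hK⟩ := (h.d i).lip
  have h6 := int_NN hK (h.d i)
  have h7 : ∫ z, pd i v z * pd i (NN v) z ∂(gQ n) =
      ∫ z, pd i v z ^ 2 ∂(gQ n) + ∫ z, pd i v z * NN (pd i v) z ∂(gQ n) := by
    rw [← integral_add (h.d i).gm.sq.integrable ((h.d i).gm.mul (h.d i).gm_NN).integrable]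
    refine integral_congr_ae (ae_of_all _ fun z => ?_)
    show pd i v z * pd i (NN v) z = pd i v z ^ 2 + pd i v z * NN (pd i v) z
    rw [h.pd_NN]
    ring
  rw [h7, h6]
  congr 1
  refine Finset.sum_congr rfl fun a _ => integral_congr_ae (ae_of_all _ fun z => ?_)
  ring

end Vale.Agent.P254.S692
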